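import Vale.Agent.P088.H599.J.Defs
import Vale.Agent.P088.H634.Dif

/-!
# P088, row U_SMK: smallness after composition with `K = (id + w)⁻¹`
-/

open MeasureTheory Set
open scoped ContDiff Matrix

noncomputable section

namespace Vale.Agent.P088.H535

open LR LR.U

variable {n N : ℕ}

section gen

variable {F G : Type*} [NormedAddCommGroup F] [NormedSpace ℝ F] [NormedAddCommGroup G]
  [NormedSpace ℝ G]

theorem cl_nonneg {k : ℕ} {δ : ℝ} {f : V n → F} (h : Cl k δ f) : 0 ≤ δ :=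
  (norm_nonneg _).trans (h 0 (Nat.zero_le _) 0)

theorem cl_le {k k' : ℕ} {δ δ' : ℝ} {f : V n → F} (h : Cl k δ f) (hk : k' ≤ k) (hδ : δ ≤ δ') :
    Cl k' δ' f := fun l hl x => (h l (hl.trans hk) x).trans hδ

theorem cl_comp {k : ℕ} {D : ℝ} (hD1 : 1 ≤ D) {K : V n → V n} (hK : ContDiff ℝ ∞ K)
    (hDK : ∀ i, 1 ≤ i → i ≤ k → ∀ y, ‖iteratedFDeriv ℝ i K y‖ ≤ D ^ i) {f : V n → F}
    (hf : ContDiff ℝ ∞ f) {δ : ℝ} (h : Cl k δ f) :
    Cl k ((k.factorial : ℝ) * D ^ k * δ) (fun y => f (K y)) := by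
  intro l hl x
  have hδ0 := cl_nonneg h
  have := norm_iteratedFDeriv_comp_le (g := f) (f := K) (N := ∞) hf hK
    (n := l) (by exact_mod_cast le_top) x (C := δ) (D := D) (fun j hj => h j (by omega) _)
    (fun j hj1 hj2 => hDK j hj1 (by omega) x)
  refine this.trans ?_
  calc (l.factorial : ℝ) * δ * D ^ l ≤ (k.factorial : ℝ) * δ * D ^ k := by
        have h2 : (l.factorial : ℝ) ≤ k.factorial := by
          exact_mod_cast Nat.factorial_le hl
        have h3 : D ^ l ≤ D ^ k := pow_le_pow_right₀ hD1 hl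
        gcongr
    _ = (k.factorial : ℝ) * D ^ k * δ := by ring

theorem cl_lin (L : F →L[ℝ] G) (hL : ‖L‖ ≤ 1) {k : ℕ} {δ : ℝ} {f : V n → F}
    (hf : ContDiff ℝ ∞ f) (h : Cl k δ f) : Cl k δ (fun y => L (f y)) := by
  intro l hl x
  have e : iteratedFDeriv ℝ l (fun y => L (f y)) x =
      L.compContinuousMultilinearMap (iteratedFDeriv ℝ l f x) :=
    L.iteratedFDeriv_comp_left (hf.contDiffAt) (by exact_mod_cast le_top)
  rw [e]
  refine (L.norm_compContinuousMultilinearMap_le _).trans ?_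
  calc ‖L‖ * ‖iteratedFDeriv ℝ l f x‖ ≤ 1 * δ :=
        mul_le_mul hL (h l hl x) (norm_nonneg _) zero_le_one
    _ = δ := one_mul _

theorem cl_add {k : ℕ} {a b : ℝ} {f g : V n → F} (hf : ContDiff ℝ ∞ f) (hg : ContDiff ℝ ∞ g)
    (h1 : Cl k a f) (h2 : Cl k b g) : Cl k (a + b) (fun y => f y + g y) := by
  intro l hl x
  have e : iteratedFDeriv ℝ l (fun y => f y + g y) x =
      iteratedFDeriv ℝ l f x + iteratedFDeriv ℝ l g x :=
    fun_iteratedFDeriv_add_apply ((hf.of_le (by exact_mod_cast le_top)).contDiffAt)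
      ((hg.of_le (by exact_mod_cast le_top)).contDiffAt)
  rw [e]
  exact (norm_add_le _ _).trans (add_le_add (h1 l hl x) (h2 l hl x))

theorem cl_zero {k : ℕ} : Cl k 0 (fun _ : V n => (0 : F)) := by
  intro l _ x
  rw [iteratedFDeriv_fun_zero]
  simp

theorem cl_sum {ι : Type*} (s : Finset ι) {k : ℕ} {a : ℝ} {f : ι → V n → F}
    (hf : ∀ j, ContDiff ℝ ∞ (f j)) (h : ∀ j, Cl k a (f j)) :
    Cl k (s.card * a) (fun y => ∑ j ∈ s, f j y) := by
  classical
  induction s using Finset.induction_on with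
  | empty => simpa using cl_zero
  | insert j s hj ih =>
    have e : (fun y => ∑ i ∈ insert j s, f i y) = fun y => f j y + ∑ i ∈ s, f i y := by
      funext y
      rw [Finset.sum_insert hj]
    rw [e, Finset.card_insert_of_notMem hj]
    have := cl_add (hf j) (ContDiff.sum fun i _ => hf i) (h j) ih
    refine cl_le this le_rfl (le_of_eq ?_)
    push_cast
    ring

end gen

theorem cl_mul {k : ℕ} {a b : ℝ} {f g : V n → ℂ} (hf : ContDiff ℝ ∞ f) (hg : ContDiff ℝ ∞ g)
    (h1 : Cl k a f) (h2 : Cl k b g) : Cl k (2 ^ k * (a * b)) (fun y => f y * g y) := by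
  intro l hl x
  have ha := cl_nonneg h1
  have hb := cl_nonneg h2
  refine (norm_iteratedFDeriv_mul_le (N := ∞) hf hg x
    (by exact_mod_cast le_top)).trans ?_
  calc ∑ i ∈ Finset.range (l + 1), (l.choose i : ℝ) * ‖iteratedFDeriv ℝ i f x‖ *
        ‖iteratedFDeriv ℝ (l - i) g x‖
      ≤ ∑ i ∈ Finset.range (l + 1), (l.choose i : ℝ) * a * b := by
        refine Finset.sum_le_sum fun i hi => ?_
        have hi' : i ≤ l := Nat.lt_succ_iff.1 (Finset.mem_range.1 hi)
        have g1 := h1 i (hi'.trans hl) x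
        have g2 := h2 (l - i) ((Nat.sub_le _ _).trans hl) x
        gcongr
    _ = 2 ^ l * (a * b) := by
        rw [← Nat.cast_two, ← Nat.cast_pow, ← Nat.sum_range_choose, Nat.cast_sum, Finset.sum_mul]
        refine Finset.sum_congr rfl fun i _ => ?_
        ring
    _ ≤ 2 ^ k * (a * b) := by
        have h3 : (2 : ℝ) ^ l ≤ 2 ^ k := pow_le_pow_right₀ (by norm_num) hl
        have : 0 ≤ a * b := mul_nonneg ha hb
        gcongr

/-- The functional `T ↦ (T e_i)_j`, complex valued. -/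
def ev (i j : Fin n) : (V n →L[ℝ] V n) →L[ℝ] ℂ :=
  Complex.ofRealCLM.comp ((ContinuousLinearMap.proj j).comp
    (ContinuousLinearMap.apply ℝ (V n) (Pi.single i 1)))

theorem ev_apply (i j : Fin n) (T : V n →L[ℝ] V n) :
    ev i j T = ((T (Pi.single i 1) j : ℝ) : ℂ) := rfl

theorem ev_norm (i j : Fin n) : ‖ev i j‖ ≤ 1 := by
  refine ContinuousLinearMap.opNorm_le_bound _ zero_le_one fun T => ?_
  rw [ev_apply, Complex.norm_real, one_mul]
  refine (norm_le_pi_norm (T (Pi.single i 1)) j).trans ?_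
  refine (T.le_opNorm _).trans ?_
  have : ‖(Pi.single i 1 : V n)‖ ≤ 1 := by
    rw [pi_norm_le_iff_of_nonneg zero_le_one]
    intro k
    by_cases hk : k = i
    · subst hk
      simp
    · simp [Pi.single_eq_of_ne hk]
  calc ‖T‖ * ‖(Pi.single i 1 : V n)‖ ≤ ‖T‖ * 1 := mul_le_mul_of_nonneg_left this (norm_nonneg _)
    _ = ‖T‖ := mul_one _

/-- The functional `v ↦ -v_a` or `0`, complex valued. -/
def evv (a : Fin n) (α β : Fin N) : V n →L[ℝ] ℂ :=
  (if α = β then (-1 : ℝ) else 0) • Complex.ofRealCLM.comp (ContinuousLinearMap.proj a)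

theorem evv_apply (a : Fin n) (α β : Fin N) (v : V n) :
    evv a α β v = -(((v a : ℝ) : ℂ) * (1 : Matrix (Fin N) (Fin N) ℂ) α β) := by
  by_cases h : α = β
  · subst h
    simp [evv]
  · simp [evv, h, Matrix.one_apply_ne h]

theorem evv_norm (a : Fin n) (α β : Fin N) : ‖evv a α β‖ ≤ 1 := by
  refine ContinuousLinearMap.opNorm_le_bound _ zero_le_one fun v => ?_
  rw [evv_apply, norm_neg, norm_mul, Complex.norm_real, one_mul]
  have h1 : ‖(1 : Matrix (Fin N) (Fin N) ℂ) α β‖ ≤ 1 := by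
    by_cases h : α = β
    · subst h
      simp
    · simp [Matrix.one_apply_ne h]
  calc ‖v a‖ * ‖(1 : Matrix (Fin N) (Fin N) ℂ) α β‖ ≤ ‖v‖ * 1 :=
        mul_le_mul (norm_le_pi_norm v a) h1 (norm_nonneg _) (norm_nonneg _)
    _ = ‖v‖ := mul_one _

/-- Row U_SMK. -/
theorem smk : RowSMK := by
  intro n N k
  obtain ⟨D, hD1, hD⟩ := H634.bound_inv (k + 1)
  have hD0 : 0 < D := by linarith
  set c₀ : ℝ := (k.factorial : ℝ) * D ^ k with hc₀
  have hc₀0 : 0 < c₀ := by positivity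
  refine ⟨(n : ℝ) * (2 ^ k * (D ^ (k + 1) * c₀)) + 2 * c₀, 1 / 2, by positivity, by norm_num, ?_⟩
  intro Ω w K hd δ hδ0 hδ hw
  have hDK := hD n w K hd.sw hd.sK hd.r (cl_le hw le_rfl hδ)
  have hDK' : ∀ i, 1 ≤ i → i ≤ k → ∀ y, ‖iteratedFDeriv ℝ i K y‖ ≤ D ^ i :=
    fun i h1 h2 => hDK i h1 (by omega)
  have hA0 : 0 ≤ (n : ℝ) * (2 ^ k * (D ^ (k + 1) * c₀)) := by positivity
  refine ⟨fun A hA hAδ i => ?_, fun F hF hFδ => ?_, fun X a hX hXδ => ?_⟩
  · intro a b
    have hfd : ContDiff ℝ ∞ (fun y => fderiv ℝ K y) := hd.sK.fderiv_right (m := ∞) (by simp)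
    have hfcl : Cl k (D ^ (k + 1)) (fun y => fderiv ℝ K y) := by
      intro l hl y
      rw [norm_iteratedFDeriv_fderiv]
      refine (hDK (l + 1) (by omega) (by omega) y).trans ?_
      exact pow_le_pow_right₀ hD1 (by omega)
    have e : (fun y => pfo A K i y a b) =
        fun y => ∑ j, ev i j (fderiv ℝ K y) * A j (K y) a b := by
      funext y
      simp only [pfo, Matrix.sum_apply, Matrix.smul_apply, smul_eq_mul]
      rfl
    rw [e]
    have hs : ∀ j, ContDiff ℝ ∞ (fun y => ev i j (fderiv ℝ K y) * A j (K y) a b) := fun j =>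
      ((ev i j).contDiff.comp hfd).mul ((hA.1 j a b).comp hd.sK)
    have hc : ∀ j, Cl k (2 ^ k * (D ^ (k + 1) * (c₀ * δ)))
        (fun y => ev i j (fderiv ℝ K y) * A j (K y) a b) := fun j =>
      cl_mul ((ev i j).contDiff.comp hfd) ((hA.1 j a b).comp hd.sK)
        (cl_lin (ev i j) (ev_norm i j) hfd hfcl) (cl_comp hD1 hd.sK hDK' (hA.1 j a b) (hAδ j a b))
    refine cl_le (cl_sum Finset.univ hs hc) le_rfl ?_
    rw [Finset.card_univ, Fintype.card_fin]
    nlinarith [mul_nonneg hc₀0.le hδ0]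
  · intro a b
    have h1 : ContDiff ℝ ∞ (fun x => (F x - 1) a b) := by
      simp only [Matrix.sub_apply]
      exact (hF a b).sub contDiff_const
    refine cl_le (cl_comp hD1 hd.sK hDK' h1 (hFδ a b)) le_rfl ?_
    nlinarith [mul_nonneg hc₀0.le hδ0, mul_nonneg hA0 hδ0]
  · intro α β
    have h1 : ContDiff ℝ ∞ (fun x => (X x - ((x a : ℝ) : ℂ) • (1 : Matrix (Fin N) (Fin N) ℂ)) α β) := by
      simp only [Matrix.sub_apply, Matrix.smul_apply, smul_eq_mul]
      exact (hX α β).sub ((Complex.ofRealCLM.contDiff.comp (contDiff_apply ℝ ℝ a)).mul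
        contDiff_const)
    have h2 : ContDiff ℝ ∞ (fun y => w (K y)) := hd.sw.comp hd.sK
    have e : (fun y => (X (K y) - ((y a : ℝ) : ℂ) • (1 : Matrix (Fin N) (Fin N) ℂ)) α β) =
        fun y => (X (K y) - ((K y a : ℝ) : ℂ) • (1 : Matrix (Fin N) (Fin N) ℂ)) α β +
          evv a α β (w (K y)) := by
      funext y
      have h3 : y a = K y a + w (K y) a := by
        conv_lhs => rw [← hd.r y]
        rfl
      rw [evv_apply]
      simp only [Matrix.sub_apply, Matrix.smul_apply, smul_eq_mul]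
      rw [h3]
      push_cast
      ring
    rw [e]
    have h4 := cl_add (h1.comp hd.sK) ((evv a α β).contDiff.comp h2)
      (cl_comp hD1 hd.sK hDK' h1 (hXδ α β))
      (cl_lin (evv a α β) (evv_norm a α β) h2
        (cl_comp hD1 hd.sK hDK' hd.sw (cl_le hw (by omega) le_rfl)))
    refine cl_le h4 le_rfl ?_
    nlinarith [mul_nonneg hc₀0.le hδ0, mul_nonneg hA0 hδ0]

end Vale.Agent.P088.H535
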